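import Vale.Agent.P265.V.Tan

/-! Part V: the gradient like vector field. PLAN. Choose R2 > R1 + 1 with ‖ι p‖ + 1 < R2 - 1 on P. For p ∈ P choose r p > 0 (r p < 1) such that the closed balls closedBall (ι p) (2 r p) are pairwise disjoint, lie in (par p).O and every y with ι y in this ball satisfies the inequality of `md`
(ι is inducing, so an eventually statement at p holds on the preimage of a ball; one common radius r for the finite set P: Finset eventually_all, nhdsWithin 0). glue with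
t b = {w | (∀ y, ι y = b → w ∈ Tan ι y ∧ (y ∉ P → fderiv G b w < 0)) ∧ (∀ p ∈ P, b ∈ closedBall (ι p) r → w = (par p).D ((par p).ρ b) (m p ((par p).ρ b))) ∧ (R2 ≤ ‖b‖ → w = Λ b)} (convex: Par.convex_tan).
Local solutions at b0: (1) b0 ∈ closedBall (ι p) r: the model field on ball (ι p) (2 r) (Par.field, tan_iff; y ∉ P gives y ≠ p); (2) R2 ≤ ‖b0‖: Λ on {R2 - 1 < ‖b‖}; (3) otherwise, on the open set U0 avoiding the closed balls and {R2 ≤ ‖b‖}: if b0 = ι y0 (y0 ∉ P) the field D (ρ b) v with v from `reg`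
on U0 ∩ O ∩ {fderiv G b (D (ρ b) v) < 0} (continuity), else 0 on U0 ∩ (range ι)ᶜ. Lipschitz: V - Λ is smooth with compact support (ContDiff.lipschitzWith_of_hasCompactSupport), Λ.lipschitz. -/

open Set Topology Filter
open scoped ContDiff

noncomputable section
namespace Vale.Agent.P265.L

variable {Z B E : Type} [TopologicalSpace Z] [NormedAddCommGroup B] [NormedSpace ℝ B]
  [NormedAddCommGroup E] [NormedSpace ℝ E]

omit [NormedSpace ℝ B] in
theorem vfield_rad {ι : Z → B} (hι : IsClosedEmbedding ι) (P : Finset Z) (O : Z → Set B)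
    (hO : ∀ p, O p ∈ 𝓝 (ι p)) (c : Z → Z → Prop) (hc : ∀ p ∈ P, ∀ᶠ y in 𝓝 p, c p y) :
    ∃ r : ℝ, 0 < r ∧ r < 1 ∧ ∀ p ∈ P, Metric.ball (ι p) (2 * r) ⊆ O p ∧
      (∀ y, ι y ∈ Metric.ball (ι p) (2 * r) → c p y) ∧
      ∀ q ∈ P, dist (ι p) (ι q) < 3 * r → p = q := by
  have key : ∀ᶠ r : ℝ in 𝓝[>] 0, ∀ p ∈ P, Metric.ball (ι p) (2 * r) ⊆ O p ∧
      (∀ y, ι y ∈ Metric.ball (ι p) (2 * r) → c p y) ∧
      ∀ q ∈ P, dist (ι p) (ι q) < 3 * r → p = q := by
    refine (eventually_all_finset P).2 fun p hp => ?_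
    have h1 := hc p hp
    rw [hι.isInducing.nhds_eq_comap, eventually_comap] at h1
    obtain ⟨δ, hδ, h⟩ := Metric.mem_nhds_iff.1 (inter_mem (hO p) h1)
    have h2 : ∀ᶠ r : ℝ in 𝓝[>] 0, r < δ / 2 :=
      mem_nhdsWithin_of_mem_nhds (eventually_lt_nhds (by linarith))
    have h3 : ∀ᶠ r : ℝ in 𝓝[>] 0, ∀ q ∈ P, dist (ι p) (ι q) < 3 * r → p = q := by
      refine (eventually_all_finset P).2 fun q _ => ?_
      by_cases e : p = q
      · exact .of_forall fun _ _ => e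
      · have : 0 < dist (ι p) (ι q) := dist_pos.2 (hι.injective.ne e)
        have h4 : ∀ᶠ r : ℝ in 𝓝[>] 0, r < dist (ι p) (ι q) / 3 :=
          mem_nhdsWithin_of_mem_nhds (eventually_lt_nhds (by linarith))
        exact h4.mono fun r h5 h6 => absurd h6 (by linarith)
    filter_upwards [h2, h3] with r h2 h3
    have hs : Metric.ball (ι p) (2 * r) ⊆ Metric.ball (ι p) δ :=
      Metric.ball_subset_ball (by linarith)
    exact ⟨fun b hb => (h (hs hb)).1, fun y hy => (h (hs hy)).2 y rfl, h3⟩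
  have h1 : ∀ᶠ r : ℝ in 𝓝[>] 0, r < 1 := mem_nhdsWithin_of_mem_nhds (eventually_lt_nhds one_pos)
  have h0 : ∀ᶠ r : ℝ in 𝓝[>] 0, 0 < r := self_mem_nhdsWithin
  obtain ⟨r, h, h0, h1⟩ := (key.and (h0.and h1)).exists
  exact ⟨r, h0, h1, h⟩

theorem exists_field [FiniteDimensional ℝ B] {ι : Z → B} (hι : IsClosedEmbedding ι) {G : B → ℝ}
    (hG : ContDiff ℝ ∞ G) (P : Finset Z) (par : ∀ p, Par E ι p) (m : Z → E → E)
    (hm : ∀ p, ContDiff ℝ ∞ (m p))
    (reg : ∀ y ∉ P, ∃ v, fderiv ℝ G (ι y) ((par y).D ((par y).ch y) v) < 0)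
    (md : ∀ p ∈ P, ∀ᶠ y in 𝓝 p, y ≠ p →
      fderiv ℝ G (ι y) ((par p).D ((par p).ch y) (m p ((par p).ch y))) < 0)
    (Λ : B →L[ℝ] B) {R1 : ℝ}
    (far : ∀ y, R1 ≤ ‖ι y‖ → Λ (ι y) ∈ Tan ι y ∧ fderiv ℝ G (ι y) (Λ (ι y)) < 0) :
    ∃ V : B → B, ContDiff ℝ ∞ V ∧ (∃ K, LipschitzWith K V) ∧ (∀ y, V (ι y) ∈ Tan ι y) ∧
      (∀ y ∉ P, fderiv ℝ G (ι y) (V (ι y)) < 0) ∧
      (∀ p ∈ P, ∀ᶠ y in 𝓝 p, V (ι y) = (par p).D ((par p).ch y) (m p ((par p).ch y))) ∧
      ∃ R2 : ℝ, ∀ b, R2 ≤ ‖b‖ → V b = Λ b := by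
  obtain ⟨r, r0, r1, hr⟩ := vfield_rad hι P (fun p => (par p).O)
    (fun p => (par p).oO.mem_nhds (par p).mO) _ md
  obtain ⟨R2, hR1, hR2⟩ : ∃ R2 : ℝ, R1 + 1 ≤ R2 ∧ ∀ p ∈ P, ‖ι p‖ + 2 ≤ R2 := by
    refine ⟨|R1| + 2 + ∑ p ∈ P, ‖ι p‖, ?_, fun p hp => ?_⟩
    · linarith [le_abs_self R1, Finset.sum_nonneg fun p (_ : p ∈ P) => norm_nonneg (ι p)]
    · linarith [abs_nonneg R1,
        Finset.single_le_sum (f := fun p => ‖ι p‖) (fun p _ => norm_nonneg (ι p)) hp]
  have dG : ContDiff ℝ ∞ (fderiv ℝ G) := hG.fderiv_right (by simp)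
  obtain ⟨V, hV, h⟩ := glue (B := B) (E := B) (fun b => {w |
      (∀ y, ι y = b → w ∈ Tan ι y ∧ (y ∉ P → fderiv ℝ G b w < 0)) ∧
      (∀ p ∈ P, b ∈ Metric.closedBall (ι p) r →
        w = (par p).D ((par p).ρ b) (m p ((par p).ρ b))) ∧ (R2 ≤ ‖b‖ → w = Λ b)})
    (fun b w hw w' hw' a a' ha ha' e => by
      refine ⟨fun y hy => ⟨(par y).convex_tan (hw.1 y hy).1 (hw'.1 y hy).1 ha ha' e,
        fun hP => ?_⟩, fun p hp hb => ?_, fun hb => ?_⟩
      · exact convex_halfSpace_lt (fderiv ℝ G b).toLinearMap.isLinear 0 ((hw.1 y hy).2 hP)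
          ((hw'.1 y hy).2 hP) ha ha' e
      · rw [hw.2.1 p hp hb, hw'.2.1 p hp hb, ← add_smul, e, one_smul]
      · rw [hw.2.2 hb, hw'.2.2 hb, ← add_smul, e, one_smul])
    (fun b0 => by
      by_cases c1 : ∃ p ∈ P, b0 ∈ Metric.closedBall (ι p) r
      · obtain ⟨p, hp, hb⟩ := c1
        obtain ⟨h1, h2, h3⟩ := hr p hp
        refine ⟨Metric.ball (ι p) (2 * r), Metric.isOpen_ball.mem_nhds
          (Metric.closedBall_subset_ball (by linarith) hb), _, ((par p).field (hm p)).mono h1,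
          fun b hb => ⟨?_, fun q hq hb' => ?_, fun hb' => ?_⟩⟩
        · rintro y rfl
          rw [((par p).inv y (h1 hb)).2]
          exact ⟨((par p).tan_iff (h1 hb)).2 ⟨_, rfl⟩, fun hy => h2 y hb fun e => hy (e ▸ hp)⟩
        · rw [Metric.mem_ball] at hb
          rw [Metric.mem_closedBall] at hb'
          obtain rfl := h3 q hq (by linarith [dist_triangle_left (ι p) (ι q) b])
          rfl
        · rw [mem_ball_iff_norm] at hb
          linarith [hR2 p hp, norm_sub_norm_le b (ι p)]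
      by_cases c2 : R2 ≤ ‖b0‖
      · refine ⟨{b | R2 - 1 < ‖b‖}, (isOpen_lt continuous_const continuous_norm).mem_nhds
          (show R2 - 1 < ‖b0‖ by linarith), Λ, Λ.contDiff.contDiffOn,
          fun b hb => ⟨?_, fun q hq hb' => ?_, fun _ => rfl⟩⟩
        · rintro y rfl
          have := far y (by linarith [show R2 - 1 < ‖ι y‖ from hb])
          exact ⟨this.1, fun _ => this.2⟩
        · rw [mem_closedBall_iff_norm] at hb'
          linarith [hR2 q hq, norm_sub_norm_le b (ι q), show R2 - 1 < ‖b‖ from hb]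
      have u1 : ∀ᶠ b in 𝓝 b0, ∀ p ∈ P, b ∉ Metric.closedBall (ι p) r :=
        (eventually_all_finset P).2 fun p hp =>
          Metric.isClosed_closedBall.isOpen_compl.mem_nhds fun h => c1 ⟨p, hp, h⟩
      have u2 : ∀ᶠ b in 𝓝 b0, ‖b‖ < R2 :=
        (isOpen_lt continuous_norm continuous_const).mem_nhds (not_le.1 c2)
      by_cases c3 : b0 ∈ range ι
      · obtain ⟨y0, rfl⟩ := c3
        have hy0 : y0 ∉ P := fun h => c1 ⟨y0, h, Metric.mem_closedBall_self r0.le⟩
        obtain ⟨v, hv⟩ := reg y0 hy0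
        have hf := (par y0).field (m := fun _ => v) contDiff_const
        have hO := (par y0).oO.mem_nhds (par y0).mO
        have u3 : ∀ᶠ b in 𝓝 (ι y0), fderiv ℝ G b ((par y0).D ((par y0).ρ b) v) < 0 := by
          refine ContinuousAt.eventually_lt (dG.continuous.continuousAt.clm_apply
            (hf.continuousOn.continuousAt hO)) continuousAt_const ?_
          rwa [((par y0).inv y0 (par y0).mO).2]
        refine ⟨_, inter_mem hO (u1.and (u2.and u3)), _, hf.mono inter_subset_left,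
          fun b hb => ⟨?_, fun q hq hb' => absurd hb' (hb.2.1 q hq),
            fun hb' => absurd hb' (not_le.2 hb.2.2.1)⟩⟩
        rintro y rfl
        refine ⟨((par y0).tan_iff hb.1).2 ⟨v, ?_⟩, fun _ => hb.2.2.2⟩
        rw [((par y0).inv y hb.1).2]
      · refine ⟨_, inter_mem (hι.isClosed_range.isOpen_compl.mem_nhds c3) (u1.and u2),
          fun _ => 0, contDiffOn_const, fun b hb => ⟨fun y hy => absurd ⟨y, hy⟩ hb.1,
            fun q hq hb' => absurd hb' (hb.2.1 q hq), fun hb' => absurd hb' (not_le.2 hb.2.2)⟩⟩)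
  refine ⟨V, hV, ?_, fun y => ((h _).1 y rfl).1, fun y hy => ((h _).1 y rfl).2 hy,
    fun p hp => ?_, R2, fun b hb => (h b).2.2 hb⟩
  · have : ProperSpace B := FiniteDimensional.proper_real B
    have hs : HasCompactSupport fun b => V b - Λ b :=
      HasCompactSupport.intro (isCompact_closedBall 0 R2) fun b hb => by
        rw [mem_closedBall_zero_iff, not_le] at hb
        rw [(h b).2.2 hb.le, sub_self]
    obtain ⟨K, hK⟩ := ContDiff.lipschitzWith_of_hasCompactSupport hs (hV.sub Λ.contDiff) (by simp)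
    have := hK.add Λ.lipschitz
    simp only [sub_add_cancel] at this
    exact ⟨_, this⟩
  · have := hι.continuous.continuousAt.eventually
      (inter_mem (Metric.closedBall_mem_nhds (ι p) r0) ((par p).oO.mem_nhds (par p).mO))
    refine this.mono fun y hy => ?_
    rw [(h _).2.1 p hp hy.1, ((par p).inv y hy.2).2]

end Vale.Agent.P265.L
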