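import Vale.Agent.P265.V.Defs

/-! Part V: tangent vectors. PLAN. tan_iff (→): ι ∘ γ is continuous at 0, so for t near 0 ι (γ t) ∈ O and ι (γ t) = (ι ∘ ch.symm) (ρ (ι (γ t))) (inv, left_inv); chain rule and uniqueness of the derivative, v = fderiv ρ (ι y) w.
(←): γ t = ch.symm (ch y + t • v). chain: F ∘ ch.symm = G ∘ (ι ∘ ch.symm), fderiv_comp. field: ContDiffOn.fderiv_of_isOpen, comp, clm_apply.
ext: glue with t b = {r | ∀ y, ι y = b → r = F y}; near a point ι p use F ∘ ch.symm ∘ ρ on O, off the closed range use 0. -/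

open Set Topology Filter
open scoped ContDiff

noncomputable section
namespace Vale.Agent.P265.L

variable {Z B E : Type} [TopologicalSpace Z] [NormedAddCommGroup B] [NormedSpace ℝ B]
  [NormedAddCommGroup E] [NormedSpace ℝ E] {ι : Z → B} {p : Z}

theorem vtan_has (c : Par E ι p) {u : E} (hu : u ∈ c.ch.target) :
    HasFDerivAt (ι ∘ c.ch.symm) (c.D u) u :=
  ((c.sψ.contDiffAt (c.ch.open_target.mem_nhds hu)).differentiableAt (by simp)).hasFDerivAt

theorem Par.tan_iff (c : Par E ι p) {y : Z} (hy : ι y ∈ c.O) {w : B} :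
    w ∈ Tan ι y ↔ ∃ v, w = c.D (c.ch y) v := by
  obtain ⟨hs, hρ⟩ := c.inv y hy
  have hD := vtan_has c (c.ch.map_source hs)
  constructor
  · rintro ⟨γ, h0, hγ⟩
    have e0 : ι y = (ι ∘ γ) 0 := congrArg ι h0.symm
    have h1 : HasFDerivAt c.ρ (fderiv ℝ c.ρ (ι y)) (ι y) :=
      ((c.sρ.contDiffAt (c.oO.mem_nhds hy)).differentiableAt (by simp)).hasFDerivAt
    have h2 := h1.comp_hasDerivAt_of_eq 0 hγ e0
    have h3 := hD.comp_hasDerivAt_of_eq 0 h2 (hρ.symm.trans (congrArg c.ρ e0))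
    refine ⟨_, hγ.unique (h3.congr_of_eventuallyEq ?_)⟩
    filter_upwards [hγ.continuousAt.preimage_mem_nhds (c.oO.mem_nhds (e0 ▸ hy))] with t ht
    obtain ⟨a, b⟩ := c.inv (γ t) ht
    show ι (γ t) = ι (c.ch.symm (c.ρ (ι (γ t))))
    rw [b, c.ch.left_inv a]
  · rintro ⟨v, rfl⟩
    have h1 : HasDerivAt (fun t : ℝ => c.ch y + t • v) v 0 := by
      simpa using ((hasDerivAt_id (0 : ℝ)).smul_const v).const_add (c.ch y)
    refine ⟨fun t => c.ch.symm (c.ch y + t • v), ?_, hD.comp_hasDerivAt_of_eq 0 h1 (by simp)⟩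
    simp only [zero_smul, add_zero, c.ch.left_inv hs]

theorem Par.convex_tan (c : Par E ι p) : Convex ℝ (Tan ι p) := by
  intro a ha b hb s t _ _ _
  obtain ⟨v, rfl⟩ := (c.tan_iff c.mO).1 ha
  obtain ⟨v', rfl⟩ := (c.tan_iff c.mO).1 hb
  exact (c.tan_iff c.mO).2 ⟨s • v + t • v', by rw [map_add, map_smul, map_smul]⟩

theorem Par.chain (c : Par E ι p) {G : B → ℝ} (hG : ContDiff ℝ ∞ G) {F : Z → ℝ}
    (hF : ∀ y, G (ι y) = F y) {y : Z} (hy : y ∈ c.ch.source) (v : E) :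
    fderiv ℝ (F ∘ c.ch.symm) (c.ch y) v = fderiv ℝ G (ι y) (c.D (c.ch y) v) := by
  have e : F ∘ c.ch.symm = G ∘ (ι ∘ c.ch.symm) := funext fun u => (hF _).symm
  have h1 : HasFDerivAt G (fderiv ℝ G (ι y)) ((ι ∘ c.ch.symm) (c.ch y)) := by
    rw [Function.comp_apply, c.ch.left_inv hy]
    exact (hG.differentiable (by simp) _).hasFDerivAt
  rw [e, (h1.comp _ (vtan_has c (c.ch.map_source hy))).fderiv]
  rfl

theorem Par.field (c : Par E ι p) {m : E → E} (hm : ContDiff ℝ ∞ m) :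
    ContDiffOn ℝ ∞ (fun b => c.D (c.ρ b) (m (c.ρ b))) c.O := by
  have h : ContDiffOn ℝ ∞ c.D c.ch.target := c.sψ.fderiv_of_isOpen c.ch.open_target le_rfl
  exact (h.comp c.sρ c.mρ).clm_apply (hm.comp_contDiffOn c.sρ)

theorem ext_smooth [FiniteDimensional ℝ B] (hι : IsClosedEmbedding ι) {F : Z → ℝ}
    (hc : ∀ p, ∃ c : Par E ι p, ContDiffOn ℝ ∞ (F ∘ c.ch.symm) c.ch.target) :
    ∃ G : B → ℝ, ContDiff ℝ ∞ G ∧ ∀ y, G (ι y) = F y := by
  obtain ⟨g, h1, h2⟩ := glue (E := ℝ) (fun b : B => {r | ∀ y, ι y = b → r = F y})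
    (fun b r hr r' hr' s t _ _ h y hy => by
      rw [hr y hy, hr' y hy, ← add_smul, h, one_smul])
    fun b => by
      by_cases hb : b ∈ range ι
      · obtain ⟨p, rfl⟩ := hb
        obtain ⟨c, hc⟩ := hc p
        refine ⟨c.O, c.oO.mem_nhds c.mO, (F ∘ c.ch.symm) ∘ c.ρ, hc.comp c.sρ c.mρ, ?_⟩
        rintro _ hb y rfl
        obtain ⟨a1, a2⟩ := c.inv y hb
        show F (c.ch.symm (c.ρ (ι y))) = F y
        rw [a2, c.ch.left_inv a1]
      · exact ⟨(range ι)ᶜ, hι.isClosed_range.isOpen_compl.mem_nhds hb, fun _ => 0,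
          contDiffOn_const, fun b' hb' y hy => absurd ⟨y, hy⟩ hb'⟩
  exact ⟨g, h1, fun y => h2 (ι y) y rfl⟩

end Vale.Agent.P265.L
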