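import Vale.Agent.P265.V.Flow
import Vale.Agent.P265.V.Tan

/-! Part V: linearity of the flow near a rest point, and monotonicity. PLAN.
locLin_of: h = ch followed by u ↦ e (u - ch p) (transHomeomorph); δ so small that ball 0 δ ⊆ h.target and the identity for V holds at h.symm w, w ∈ ball 0 δ. For w and hyp t w in the ball, hyp r w is in the ball for r in an open interval around uIcc 0 t
(each component norm is monotone in r; the set of good r is open, or use a slightly bigger interval), and r ↦ ι (h.symm (hyp r w)) = ψ (ch p + e.symm (hyp r w)) solves the equation (derivative of e.symm (hyp r w) is lam e (e.symm (hyp r w))); lip_unique, injectivity of ι.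
p ∈ ch.source by c.inv p c.mO. flow_dec: the orbit avoids P (fix, map_add), strictAnti_of_deriv_neg / strictAnti_of_hasDerivAt_neg. flow_far: r ↦ F (φ r y) + c r is antitone on Icc 0 t (antitoneOn_of_deriv_nonpos). -/

open Set Topology Filter
open scoped ContDiff

noncomputable section
namespace Vale.Agent.P265.L

variable {Z B E : Type} [TopologicalSpace Z] [NormedAddCommGroup B] [NormedSpace ℝ B]
  [NormedAddCommGroup E] [NormedSpace ℝ E] {ι : Z → B} {V : B → B} {K : NNReal} {φ : Flow ℝ Z}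

theorem vlinf_zero {s s' : ℕ} (w : Sp s s') : hyp 0 w = w := by
  simp [hyp]

theorem vlinf_ord {s s' : ℕ} {w : Sp s s'} {δ a b r : ℝ} (ha : hyp a w ∈ Metric.ball (0 : Sp s s') δ)
    (hb : hyp b w ∈ Metric.ball (0 : Sp s s') δ) (h1 : a ≤ r) (h2 : r ≤ b) :
    hyp r w ∈ Metric.ball (0 : Sp s s') δ := by
  simp only [mem_ball_zero_iff, hyp, Prod.norm_def, max_lt_iff, norm_smul,
    Real.norm_of_nonneg (Real.exp_nonneg _)] at ha hb ⊢
  exact ⟨(mul_le_mul_of_nonneg_right (Real.exp_le_exp.2 h2) (norm_nonneg _)).trans_lt hb.1,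
    (mul_le_mul_of_nonneg_right (Real.exp_le_exp.2 (neg_le_neg h1)) (norm_nonneg _)).trans_lt ha.2⟩

theorem vlinf_der {s s' : ℕ} (w : Sp s s') (r : ℝ) :
    HasDerivAt (fun r => hyp r w) ((hyp r w).1, -(hyp r w).2) r := by
  have h := ((hasDerivAt_neg r).exp).smul_const w.2
  rw [mul_neg_one, neg_smul] at h
  exact ((Real.hasDerivAt_exp r).smul_const w.1).prodMk h

theorem vlinf_comp {G : B → ℝ} (hG : ContDiff ℝ ∞ G)
    (hφ : ∀ y t, HasDerivAt (fun r => ι (φ r y)) (V (ι (φ t y))) t) (y : Z) (t : ℝ) :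
    HasDerivAt (fun r => G (ι (φ r y))) (fderiv ℝ G (ι (φ t y)) (V (ι (φ t y)))) t :=
  (hG.differentiable (by simp) _).hasFDerivAt.comp_hasDerivAt t (hφ y t)

theorem locLin_of (hι : Function.Injective ι) {p : Z} (c : Par E ι p) {s s' : ℕ}
    (e : E ≃L[ℝ] Sp s s') (hK : LipschitzWith K V)
    (hφ : ∀ y t, HasDerivAt (fun r => ι (φ r y)) (V (ι (φ t y))) t)
    (hV : ∀ᶠ y in 𝓝 p, V (ι y) = c.D (c.ch y) (lam e (c.ch y - c.ch p))) : LocLin φ p s s' := by
  have hp : p ∈ c.ch.source := (c.inv p c.mO).1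
  let h := c.ch.transHomeomorph ((Homeomorph.subRight (c.ch p)).trans e.toHomeomorph)
  have h0 : h p = 0 := by simp [h]
  have hs : ∀ w, h.symm w = c.ch.symm (e.symm w + c.ch p) := fun w => rfl
  have ht : ∀ w, w ∈ h.target ↔ e.symm w + c.ch p ∈ c.ch.target := fun w => Iff.rfl
  have h1 : ∀ᶠ w in 𝓝 (h p), w ∈ h.target := h.open_target.mem_nhds (h.map_source hp)
  have h2 := h1.and ((h.tendsto_symm hp).eventually hV)
  rw [h0] at h2
  obtain ⟨δ, hδ, hb⟩ := Metric.eventually_nhds_iff_ball.1 h2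
  refine ⟨h, δ, hδ, hp, h0, fun w hw => (hb w hw).1, fun w hw t hw' => hι ?_⟩
  have hc : ∀ r, hyp r w ∈ Metric.ball (0 : Sp s s') δ →
      ∀ᶠ r' in 𝓝 r, hyp r' w ∈ Metric.ball (0 : Sp s s') δ := fun r hr =>
    (vlinf_der w r).continuousAt.eventually_mem (Metric.isOpen_ball.mem_nhds hr)
  rw [← vlinf_zero w] at hw
  obtain ⟨a, a1, a2⟩ := (hc (min 0 t) (by
    rcases min_choice 0 t with e | e <;> rwa [e])).exists_lt
  obtain ⟨b, b1, b2⟩ := (hc (max 0 t) (by
    rcases max_choice 0 t with e | e <;> rwa [e])).exists_gt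
  rw [lt_min_iff] at a1
  rw [max_lt_iff] at b1
  refine lip_unique hK (f := fun r => ι (φ r (h.symm w))) (g := fun r => ι (h.symm (hyp r w)))
    (t0 := 0) ⟨a1.1, b1.1⟩ (fun r _ => hφ _ r) (fun r hr => ?_) ?_ ⟨a1.2, b1.2⟩
  · obtain ⟨k1, k2⟩ := hb _ (vlinf_ord a2 b2 hr.1.le hr.2.le)
    rw [ht] at k1
    have k3 := ((c.sψ.contDiffAt (c.ch.open_target.mem_nhds k1)).differentiableAt
      (by simp)).hasFDerivAt.comp_hasDerivAt r
      ((e.symm.hasFDerivAt.comp_hasDerivAt r (vlinf_der w r)).add_const (c.ch p))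
    rw [k2, hs, c.ch.right_inv k1, add_sub_cancel_right, lam_apply, e.apply_symm_apply]
    exact k3
  · simp only [vlinf_zero, Flow.map_zero_apply]

theorem LocLin.fix {p : Z} {s s' : ℕ} (h : LocLin φ p s s') (t : ℝ) : φ t p = p := by
  obtain ⟨h, δ, hδ, hp, h0, -, h1⟩ := h
  have e : hyp t (0 : Sp s s') = 0 := by simp [hyp]
  have h2 := h1 0 (Metric.mem_ball_self hδ) t (e.symm ▸ Metric.mem_ball_self hδ)
  rwa [e, ← h0, h.left_inv hp] at h2

theorem flow_dec {G : B → ℝ} (hG : ContDiff ℝ ∞ G) {P : Finset Z}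
    (hφ : ∀ y t, HasDerivAt (fun r => ι (φ r y)) (V (ι (φ t y))) t)
    (fix : ∀ p ∈ P, ∀ t, φ t p = p) (hV : ∀ y ∉ P, fderiv ℝ G (ι y) (V (ι y)) < 0) {y : Z}
    (hy : y ∉ P) {t : ℝ} (ht : 0 < t) : G (ι (φ t y)) < G (ι y) := by
  have h1 : ∀ r, φ r y ∉ P := fun r hr => hy (by
    have := fix _ hr (-r)
    rw [← φ.map_add, neg_add_cancel, φ.map_zero_apply] at this
    rwa [this])
  have h2 := strictAnti_of_deriv_neg (f := fun r => G (ι (φ r y)))
    (fun r => (vlinf_comp hG hφ y r).deriv.trans_lt (hV _ (h1 r))) ht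
  simpa only [Flow.map_zero_apply] using h2

theorem flow_far {G : B → ℝ} (hG : ContDiff ℝ ∞ G) {C : Set Z} {c : ℝ}
    (hφ : ∀ y t, HasDerivAt (fun r => ι (φ r y)) (V (ι (φ t y))) t)
    (hV : ∀ y ∉ C, fderiv ℝ G (ι y) (V (ι y)) ≤ -c) {y : Z} {t : ℝ} (ht : 0 ≤ t)
    (h : ∀ r ∈ Icc 0 t, φ r y ∉ C) : G (ι (φ t y)) ≤ G (ι y) - c * t := by
  have h1 : ∀ r, HasDerivAt (fun r => G (ι (φ r y)) + c * r)
      (fderiv ℝ G (ι (φ r y)) (V (ι (φ r y))) + c * 1) r := fun r =>
    (vlinf_comp hG hφ y r).add ((hasDerivAt_id r).const_mul c)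
  have h2 := antitoneOn_of_deriv_nonpos (convex_Icc 0 t)
    (fun r _ => (h1 r).continuousAt.continuousWithinAt)
    (fun r _ => (h1 r).differentiableAt.differentiableWithinAt)
    (fun r hr => (h1 r).deriv.trans_le (by linarith [hV _ (h r (interior_subset hr))]))
    (left_mem_Icc.2 ht) (right_mem_Icc.2 ht) ht
  simp only [Flow.map_zero_apply] at h2
  linarith

end Vale.Agent.P265.L
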