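import Vale.Agent.P265.V.Syl

/-! Part V: the model field at a nondegenerate critical point. PLAN. H = fderiv (fderiv g) u0 is symmetric (ContDiffAt.isSymmSndFDerivAt); Q = LinearMap.BilinMap.toQuadraticMap of H, polar Q v w = 2 H v w (polar_toQuadraticMap); syl gives e, and qq_polar gives
H h (lam e h) = - ss (e h) ≤ - c ‖h‖^2 (ss_low). fderiv g has derivative H at u0: ‖fderiv g u - H (u - u0)‖ ≤ ε ‖u - u0‖ eventually (HasFDerivAt.isLittleO, IsLittleO.bound / def) with ε (‖lam e‖ + 1) < c.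
far_field: the curve t ↦ (x, z + t • lam e z); G ∘ ι ∘ curve = qq (e (z + t • lam e z)) near t = 0 because R < ‖z‖; uniqueness of the derivative (HasDerivAt.unique), qq_deriv. -/

open Set Topology Filter
open scoped ContDiff

noncomputable section
namespace Vale.Agent.P265.L

variable {E : Type} [NormedAddCommGroup E] [NormedSpace ℝ E]

theorem loc_model [FiniteDimensional ℝ E] {g : E → ℝ} {u0 : E} (hg : ContDiffAt ℝ ∞ g u0)
    (h1 : fderiv ℝ g u0 = 0) (h2 : Function.Injective (fderiv ℝ (fderiv ℝ g) u0)) :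
    ∃ (s s' : ℕ) (e : E ≃L[ℝ] Sp s s'), s + s' = Module.finrank ℝ E ∧
      ∀ᶠ u in 𝓝 u0, u ≠ u0 → fderiv ℝ g u (lam e (u - u0)) < 0 := by
  have sy := (hg.isSymmSndFDerivAt (by simp; norm_cast)).eq
  have hd : HasFDerivAt (fderiv ℝ g) (fderiv ℝ (fderiv ℝ g) u0) u0 :=
    ((hg.fderiv_right (m := 1) (by norm_cast)).differentiableAt (by simp)).hasFDerivAt
  generalize fderiv ℝ (fderiv ℝ g) u0 = H at h2 sy hd
  have pol : ∀ v w, QuadraticMap.polar (LinearMap.BilinMap.toQuadraticMap H.toLinearMap₁₂) v w =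
      2 * H v w := fun v w => by
    rw [LinearMap.BilinMap.polar_toQuadraticMap, two_mul]
    exact congrArg (H v w + ·) (sy w v)
  obtain ⟨s, s', e, h3, h4⟩ := syl (LinearMap.BilinMap.toQuadraticMap H.toLinearMap₁₂)
    fun v hv => h2 (by
      rw [map_zero]
      ext w
      have := hv w
      rw [pol] at this
      simpa using this)
  obtain ⟨c, c0, hc⟩ := ss_low e
  obtain ⟨C, C0, hC⟩ := (lam e).bound
  refine ⟨s, s', e, h3, ?_⟩
  filter_upwards [hd.isLittleO.def (c := c / (2 * C)) (by positivity)] with u hu hne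
  have a1 : H (u - u0) (lam e (u - u0)) = -ss (e (u - u0)) := by
    have := pol (u - u0) (lam e (u - u0))
    rw [QuadraticMap.polar, h4, h4, h4, qq_polar] at this
    linarith
  have n0 : 0 < ‖u - u0‖ := norm_pos_iff.2 (sub_ne_zero.2 hne)
  have a2 := ((fderiv ℝ g u - fderiv ℝ g u0 - H (u - u0)).le_opNorm (lam e (u - u0))).trans
    (mul_le_mul hu (hC _) (norm_nonneg _) (by positivity))
  rw [h1, sub_zero, sub_apply, a1, Real.norm_eq_abs] at a2
  have a3 : c / (2 * C) * ‖u - u0‖ * (C * ‖u - u0‖) = c * ‖u - u0‖ ^ 2 / 2 := by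
    field_simp
  have a4 : 0 < c * ‖u - u0‖ ^ 2 := by positivity
  linarith [(abs_le.1 a2).2, hc (u - u0)]

theorem far_field {M A : Type} [TopologicalSpace M] [NormedAddCommGroup A] [NormedSpace ℝ A]
    (ι : M → A) {s s' : ℕ} (e : E ≃L[ℝ] Sp s s') {G : A × E → ℝ} (hG : ContDiff ℝ ∞ G) {R : ℝ}
    (hR : ∀ x z, R ≤ ‖z‖ → G (ι x, z) = qq (e z)) (x : M) {z : E} (hz : R < ‖z‖) :
    ((0 : A), lam e z) ∈ Tan (Prod.map ι (id : E → E)) (x, z) ∧
      fderiv ℝ G (ι x, z) (0, lam e z) = -2 * ss (e z) := by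
  have d1 : HasDerivAt (fun t : ℝ => z + t • lam e z) (lam e z) 0 := by
    have := ((hasDerivAt_id' (0 : ℝ)).smul_const (lam e z)).const_add z
    rwa [one_smul] at this
  have d2 : HasDerivAt (fun t : ℝ => (ι x, z + t • lam e z)) ((0 : A), lam e z) 0 :=
    (hasDerivAt_const _ _).prodMk d1
  refine ⟨⟨fun t => (x, z + t • lam e z), by simp, d2⟩, ?_⟩
  have d3 := (hG.differentiable (by simp) (ι x, z)).hasFDerivAt.comp_hasDerivAt_of_eq (0 : ℝ) d2
    (by simp)
  refine d3.unique ((qq_deriv e z).congr_of_eventuallyEq ?_)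
  have h0 : R < ‖z + (0 : ℝ) • lam e z‖ := by simpa using hz
  filter_upwards [continuousAt_const.eventually_lt d1.continuousAt.norm h0] with t ht
  exact hR x _ ht.le

end Vale.Agent.P265.L
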