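import Vale.Agent.P265.V.Emb
import Vale.Agent.P265.V.Loc
import Vale.Agent.P265.V.Field
import Vale.Agent.P265.V.Inv
import Vale.Agent.P265.V.LinF

/-! Part V: assembly. A Morse function quadratic at infinity has a gradient like flow. -/

open Set Topology Filter
open scoped ContDiff Manifold

noncomputable section
namespace Vale.Agent.P265.L

theorem exists_PG {E M : Type} [NormedAddCommGroup E] [NormedSpace ℝ E] [FiniteDimensional ℝ E]
    [TopologicalSpace M] [T2Space M] [CompactSpace M] [ChartedSpace E M] [IsManifold 𝓘(ℝ, E) ∞ M]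
    {k : ℕ} {F : M × Rk k → ℝ} (hF : IsMorse E F) (hQ : QuadInf F) {P : Finset (M × Rk k)}
    (hP : (P : Set (M × Rk k)) = Crit E F) :
    ∃ (s s' : ℕ) (e : Rk k ≃L[ℝ] Sp s s') (R : ℝ),
      (∀ x z, R ≤ ‖z‖ → F (x, z) = qq (e z)) ∧
      Nonempty (PG (M × Rk k) F P (s + s' + Module.finrank ℝ E)) := by
  classical
  obtain ⟨Q, R, hQ, hR0, hR⟩ := hQ
  obtain ⟨s, s', e, hs, he⟩ := syl Q hQ
  have hRe : ∀ x z, R ≤ ‖z‖ → F (x, z) = qq (e z) := fun x z hz => by rw [hR x z hz, he]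
  refine ⟨s, s', e, R, hRe, ?_⟩
  obtain ⟨n, i, hi, hc⟩ := exists_emb (E := E) (M := M)
  set ι : M × Rk k → EuclideanSpace ℝ (Fin n) × Rk k := Prod.map i id with hιd
  have hι : IsClosedEmbedding ι := hi.prodMap IsClosedEmbedding.id
  have hpar : ∀ p : M × Rk k, ∃ c : Par (E × Rk k) ι p,
      c.ch = (chartAt E p.1).prod (OpenPartialHomeomorph.refl _) := fun p => by
    obtain ⟨c, hc⟩ := hc p.1
    obtain ⟨c', hc'⟩ := c.prod p.2
    exact ⟨c', by rw [hc', hc]⟩
  choose par hpar using hpar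
  have hloc : ∀ p, F ∘ (par p).ch.symm = loc E F p.1 := fun p => by rw [hpar]; rfl
  have hch : ∀ p, (par p).ch p = (chartAt E p.1 p.1, p.2) := fun p => by rw [hpar]; rfl
  have hsm : ∀ p, ContDiffOn ℝ ∞ (F ∘ (par p).ch.symm) (par p).ch.target := fun p => by
    rw [hloc, hpar]
    exact loc_smooth hF.1 p.1
  have hsrc : ∀ p, p ∈ (par p).ch.source := fun p => ((par p).inv p (par p).mO).1
  obtain ⟨G, hG, hGF⟩ := ext_smooth hι fun p => ⟨par p, hsm p⟩
  have hmod : ∀ p : M × Rk k, ∃ (a a' : ℕ) (ep : ((E × Rk k) ≃L[ℝ] Sp a a') ⊕ Unit),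
      p ∈ P → a + a' = s + s' + Module.finrank ℝ E ∧ ∃ ee, ep = Sum.inl ee ∧
        ∀ᶠ u in 𝓝 ((par p).ch p), u ≠ (par p).ch p →
          fderiv ℝ (F ∘ (par p).ch.symm) u (lam ee (u - (par p).ch p)) < 0 := fun p => by
    by_cases hp : p ∈ P
    · have hp' : p ∈ Crit E F := hP ▸ hp
      obtain ⟨a, a', ee, ha, hee⟩ := loc_model (g := F ∘ (par p).ch.symm) (u0 := (par p).ch p)
        ((hsm p).contDiffAt ((par p).ch.open_target.mem_nhds ((par p).ch.map_source (hsrc p))))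
        (by rw [hloc, hch]; exact hp') (by rw [hloc, hch]; exact hF.2 p hp')
      refine ⟨a, a', Sum.inl ee, fun _ => ⟨?_, ee, rfl, hee⟩⟩
      rw [ha, Module.finrank_prod, hs, add_comm]
    · exact ⟨0, 0, Sum.inr (), fun h => (hp h).elim⟩
  choose ind ind' ep hep using hmod
  let m : M × Rk k → E × Rk k → E × Rk k := fun p =>
    Sum.elim (fun ee u => lam ee (u - (par p).ch p)) (fun _ _ => 0) (ep p)
  have hm : ∀ p, ContDiff ℝ ∞ (m p) := fun p => by
    simp only [m]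
    cases ep p with
    | inl ee => exact (lam ee).contDiff.comp (contDiff_id.sub contDiff_const)
    | inr _ => exact contDiff_const
  obtain ⟨c, hc0, hcs⟩ := ss_low e
  obtain ⟨D, hD⟩ : ∃ D : ℝ, ∀ x, ‖i x‖ ≤ D := by
    obtain ⟨D, hD⟩ := (isCompact_range hi.continuous).isBounded.exists_norm_le
    exact ⟨D, fun x => hD _ ⟨x, rfl⟩⟩
  let Λ : (EuclideanSpace ℝ (Fin n) × Rk k) →L[ℝ] (EuclideanSpace ℝ (Fin n) × Rk k) :=
    (0 : EuclideanSpace ℝ (Fin n) →L[ℝ] EuclideanSpace ℝ (Fin n)).prodMap (lam e)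
  have hfar : ∀ y, max D R + 1 ≤ ‖ι y‖ →
      Λ (ι y) ∈ Tan ι y ∧ fderiv ℝ G (ι y) (Λ (ι y)) ≤ -(2 * (c * R ^ 2)) := by
    rintro ⟨x, z⟩ hy
    have hz : R < ‖z‖ := by
      have h1 : ‖ι (x, z)‖ = max ‖i x‖ ‖z‖ := rfl
      have h2 := hD x
      have h3 := le_max_left D R
      have h4 := le_max_right D R
      rcases le_total ‖i x‖ ‖z‖ with h | h
      · rw [h1, max_eq_right h] at hy; linarith
      · rw [h1, max_eq_left h] at hy; linarith
    obtain ⟨h1, h2⟩ := far_field i e hG (R := R)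
      (fun x z hz => by rw [← hRe x z hz, ← hGF]; rfl) x hz
    refine ⟨h1, ?_⟩
    have h3 : fderiv ℝ G (ι (x, z)) (Λ (ι (x, z))) = -2 * ss (e z) := h2
    have h4 := hcs z
    have h5 : c * R ^ 2 ≤ c * ‖z‖ ^ 2 := by gcongr
    linarith
  have hcR : 0 < 2 * (c * R ^ 2) := by positivity
  obtain ⟨V, hV, ⟨K, hK⟩, hVt, hVd, hVm, R2, hR2⟩ := exists_field hι hG P par m hm
    (fun y hy => by
      have h1 : fderiv ℝ (F ∘ (par y).ch.symm) ((par y).ch y) ≠ 0 := by
        rw [hloc, hch]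
        intro h
        exact hy (by rw [← Finset.mem_coe, hP]; exact h)
      obtain ⟨v, hv⟩ : ∃ v, fderiv ℝ (F ∘ (par y).ch.symm) ((par y).ch y) v ≠ 0 := by
        by_contra h
        push Not at h
        exact h1 (ContinuousLinearMap.ext h)
      rcases lt_or_gt_of_ne hv with h | h
      · exact ⟨v, by rwa [← (par y).chain hG hGF (hsrc y)]⟩
      · exact ⟨-v, by rw [← (par y).chain hG hGF (hsrc y), map_neg]; linarith⟩)
    (fun p hp => by
      obtain ⟨-, ee, h1, h2⟩ := hep p hp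
      have h3 := ((par p).ch.continuousAt (hsrc p)).eventually h2
      filter_upwards [h3, (par p).ch.open_source.mem_nhds (hsrc p)] with y h4 h5 h6
      rw [← (par p).chain hG hGF h5]
      simp only [m, h1, Sum.elim_inl]
      exact h4 fun h => h6 ((par p).ch.injOn h5 (hsrc p) h))
    Λ (R1 := max D R + 1) (fun y hy => ⟨(hfar y hy).1, by linarith [(hfar y hy).2]⟩)
  obtain ⟨Φ, hΦ⟩ := lip_flow hK
  obtain ⟨φ, hφ⟩ := flow_restrict hι par hV hK hVt Φ hΦ
  have hd : ∀ y t, HasDerivAt (fun r => ι (φ r y)) (V (ι (φ t y))) t := fun y t => by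
    simp only [hφ]
    exact hΦ _ _
  have hlin : ∀ p ∈ P, LocLin φ p (ind p) (ind' p) := fun p hp => by
    obtain ⟨-, ee, h1, -⟩ := hep p hp
    refine locLin_of hι.injective (par p) ee hK hd ?_
    simpa only [m, h1, Sum.elim_inl] using hVm p hp
  have hfix : ∀ p ∈ P, ∀ t, φ t p = p := fun p hp => (hlin p hp).fix
  refine ⟨⟨φ, ind, ind', hF.1.continuous, fun p hp => (hep p hp).1, hfix, fun y hy t ht => ?_,
    ⟨ι ⁻¹' Metric.closedBall 0 (max (max D R + 1) R2), 2 * (c * R ^ 2),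
      hι.isCompact_preimage (isCompact_closedBall _ _), hcR, fun y t ht h => ?_⟩, hlin⟩⟩
  · rw [← hGF, ← hGF]
    exact flow_dec hG hd hfix hVd hy ht
  · rw [← hGF, ← hGF]
    refine flow_far hG hd (fun y hy => ?_) ht h
    simp only [mem_preimage, mem_closedBall_zero_iff, not_le, max_lt_iff] at hy
    rw [hR2 _ hy.2.le]
    exact (hfar y hy.1.le).2

end Vale.Agent.P265.L
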