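import Vale.Agent.P265.K.Data

/-! P265 part V: smooth parametrisations of an embedded space. DO NOT EDIT (ask helper98). -/

open Set Topology Filter
open scoped ContDiff Manifold

noncomputable section
namespace Vale.Agent.P265.L

variable {Z B E : Type} [TopologicalSpace Z] [NormedAddCommGroup B] [NormedSpace ℝ B]
  [NormedAddCommGroup E] [NormedSpace ℝ E]

/-- A chart at `p` in which `ι` is smooth, with a smooth ambient left inverse `ρ`. -/
structure Par (E : Type) [NormedAddCommGroup E] [NormedSpace ℝ E] (ι : Z → B) (p : Z) where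
  ch : OpenPartialHomeomorph Z E
  O : Set B
  ρ : B → E
  sψ : ContDiffOn ℝ ∞ (ι ∘ ch.symm) ch.target
  oO : IsOpen O
  mO : ι p ∈ O
  sρ : ContDiffOn ℝ ∞ ρ O
  mρ : MapsTo ρ O ch.target
  inv : ∀ y, ι y ∈ O → y ∈ ch.source ∧ ρ (ι y) = ch y

/-- The differential of the parametrisation. -/
def Par.D {ι : Z → B} {p : Z} (c : Par E ι p) (u : E) : E →L[ℝ] B := fderiv ℝ (ι ∘ c.ch.symm) u

/-- Velocities of curves. -/
def Tan (ι : Z → B) (y : Z) : Set B := {w | ∃ γ : ℝ → Z, γ 0 = y ∧ HasDerivAt (ι ∘ γ) w 0}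

/-- The standard hyperbolic linear vector field in the coordinates `e`. -/
def lam {s s' : ℕ} (e : E ≃L[ℝ] Sp s s') : E →L[ℝ] E :=
  (e.symm : Sp s s' →L[ℝ] E) ∘L
    ((ContinuousLinearMap.id ℝ _).prodMap (-ContinuousLinearMap.id ℝ _)) ∘L (e : E →L[ℝ] Sp s s')

theorem lam_apply {s s' : ℕ} (e : E ≃L[ℝ] Sp s s') (h : E) :
    lam e h = e.symm ((e h).1, -(e h).2) := rfl

theorem glue [FiniteDimensional ℝ B] (t : B → Set E) (ht : ∀ b, Convex ℝ (t b))
    (h : ∀ b, ∃ U ∈ 𝓝 b, ∃ g : B → E, ContDiffOn ℝ ∞ g U ∧ ∀ y ∈ U, g y ∈ t y) :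
    ∃ g : B → E, ContDiff ℝ ∞ g ∧ ∀ b, g b ∈ t b := by
  obtain ⟨g, hg⟩ := exists_contMDiffMap_forall_mem_convex_of_local (n := ⊤) 𝓘(ℝ, B) ht fun b => by
    obtain ⟨U, hU, g, h1, h2⟩ := h b
    exact ⟨U, hU, g, h1.contMDiffOn, h2⟩
  exact ⟨g, g.contMDiff.contDiff, hg⟩

end Vale.Agent.P265.L
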