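import Vale.Agent.P265.V.Defs

/-! Part V: the flow of a globally Lipschitz vector field. PLAN. Uniform time: with T = 1 / (2 (K + 1)), a = 2 T ‖V b‖ + 1, L = ‖V b‖ + K a, IsPicardLindelof on Icc (-T) T around b (L T ≤ a). Global solution: either glue by hand
(induction on n for solutions on Ioo (-nT) (nT), ODE_solution_unique_of_mem_Ioo) or use exists_isMIntegralCurve_of_isMIntegralCurveOn, or truncate: see Vale/Agent/P107/FlowO.lean (LipVF.exists_loc, exists_sol, Fl2.continuous) which does the bounded case and can be adapted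
(a priori bound by Gronwall, or apply it to V ∘ (radial retraction / clamp onto a big ball)). Uniqueness: ODE_solution_unique_univ. Continuity: dist_le_of_trajectories_ODE (both time directions) gives dist (Φ t b) (Φ t b') ≤ exp (K |t|) dist b b'; continuous_prod_of_continuous_lipschitzWith' or a triangle inequality. -/

open Set Topology Filter

noncomputable section
namespace Vale.Agent.P265.L

variable {B : Type} [NormedAddCommGroup B] [NormedSpace ℝ B]

theorem lip_unique {V : B → B} {K : NNReal} (hV : LipschitzWith K V) {f g : ℝ → B} {a b t0 : ℝ}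
    (ht : t0 ∈ Ioo a b) (hf : ∀ t ∈ Ioo a b, HasDerivAt f (V (f t)) t)
    (hg : ∀ t ∈ Ioo a b, HasDerivAt g (V (g t)) t) (h : f t0 = g t0) : EqOn f g (Ioo a b) := by
  exact ODE_solution_unique_of_mem_Ioo (v := fun _ => V) (s := fun _ => univ) (K := K)
    (fun _ _ => hV.lipschitzOnWith) ht (fun t h => ⟨hf t h, trivial⟩)
    (fun t h => ⟨hg t h, trivial⟩) h

theorem vflow_loc [CompleteSpace B] {V : B → B} {K : NNReal} (hV : LipschitzWith K V) :
    ∃ T : ℝ, 0 < T ∧ ∀ (s : ℝ) (b : B), ∃ β : ℝ → B, β s = b ∧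
      ∀ t ∈ Ioo (s - T) (s + T), HasDerivAt β (V (β t)) t := by
  have hK : (0 : ℝ) ≤ K := K.2
  have hT : (0 : ℝ) < 1 / (2 * (K + 1)) := by positivity
  refine ⟨1 / (2 * (K + 1)), hT, fun s b => ?_⟩
  set T : ℝ := 1 / (2 * (K + 1)) with hTd
  have hKT : K * T ≤ 1 / 2 := by
    rw [hTd, mul_one_div, div_le_div_iff₀ (by positivity) (by positivity)]
    linarith
  have hb := norm_nonneg (V b)
  have hP : IsPicardLindelof (fun _ => V) (⟨s, ⟨by linarith, by linarith⟩⟩ : Icc (s - T) (s + T)) b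
      ⟨2 * T * ‖V b‖, by positivity⟩ 0 ⟨‖V b‖ + K * (2 * T * ‖V b‖), by positivity⟩ K :=
    { lipschitzOnWith := fun t _ => hV.lipschitzOnWith
      continuousOn := fun x _ => continuousOn_const
      norm_le := fun t _ x hx => by
        have h1 := hV.dist_le_mul x b
        have h2 : dist x b ≤ 2 * T * ‖V b‖ := hx
        have h3 := norm_le_norm_add_norm_sub' (V x) (V b)
        rw [dist_eq_norm] at h1
        have h4 := mul_le_mul_of_nonneg_left h2 hK
        show ‖V x‖ ≤ ‖V b‖ + K * (2 * T * ‖V b‖)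
        linarith
      mul_max_le := by
        show (‖V b‖ + K * (2 * T * ‖V b‖)) * max (s + T - s) (s - (s - T)) ≤ 2 * T * ‖V b‖ - (0 : NNReal)
        rw [add_sub_cancel_left, sub_sub_cancel, max_self]
        have := mul_le_mul_of_nonneg_right hKT (show 0 ≤ 2 * T * ‖V b‖ by positivity)
        simp only [NNReal.coe_zero, sub_zero]
        nlinarith }
  obtain ⟨β, h0, hβ⟩ := hP.exists_eq_forall_mem_Icc_hasDerivWithinAt₀
  exact ⟨β, h0, fun t ht => (hβ t (Ioo_subset_Icc_self ht)).hasDerivAt (Icc_mem_nhds ht.1 ht.2)⟩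

theorem vflow_glue {V : B → B} {K : NNReal} (hV : LipschitzWith K V) {f g : ℝ → B}
    {a b c d t0 : ℝ} (h1 : a ≤ c) (h2 : c < t0) (h3 : t0 < b) (h4 : b ≤ d)
    (hf : ∀ t ∈ Ioo a b, HasDerivAt f (V (f t)) t)
    (hg : ∀ t ∈ Ioo c d, HasDerivAt g (V (g t)) t) (h : f t0 = g t0) :
    ∃ k : ℝ → B, EqOn k f (Ioo a b) ∧ EqOn k g (Ioo c d) ∧
      ∀ t ∈ Ioo a d, HasDerivAt k (V (k t)) t := by
  have hu : EqOn f g (Ioo c b) := lip_unique hV ⟨h2, h3⟩
    (fun t ht => hf t ⟨h1.trans_lt ht.1, ht.2⟩) (fun t ht => hg t ⟨ht.1, ht.2.trans_le h4⟩) h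
  have e1 : EqOn (fun t => if t ≤ t0 then f t else g t) f (Ioo a b) := fun t ht => by
    by_cases h5 : t ≤ t0
    · exact if_pos h5
    · exact (if_neg h5).trans (hu ⟨h2.trans (not_le.1 h5), ht.2⟩).symm
  have e2 : EqOn (fun t => if t ≤ t0 then f t else g t) g (Ioo c d) := fun t ht => by
    by_cases h5 : t ≤ t0
    · exact (if_pos h5).trans (hu ⟨ht.1, h5.trans_lt h3⟩)
    · exact if_neg h5
  refine ⟨_, e1, e2, fun t ht => ?_⟩
  by_cases h5 : t ≤ t0
  · have hm : t ∈ Ioo a b := ⟨ht.1, h5.trans_lt h3⟩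
    rw [if_pos h5]
    exact (hf t hm).congr_of_eventuallyEq (e1.eventuallyEq_of_mem (Ioo_mem_nhds hm.1 hm.2))
  · have hm : t ∈ Ioo c d := ⟨h2.trans (not_le.1 h5), ht.2⟩
    rw [if_neg h5]
    exact (hg t hm).congr_of_eventuallyEq (e2.eventuallyEq_of_mem (Ioo_mem_nhds hm.1 hm.2))

theorem vflow_long [CompleteSpace B] {V : B → B} {K : NNReal} (hV : LipschitzWith K V) (b : B)
    (ρ : ℝ) : ∃ β : ℝ → B, β 0 = b ∧ ∀ t ∈ Ioo (-ρ) ρ, HasDerivAt β (V (β t)) t := by
  obtain ⟨T, hT, hl⟩ := vflow_loc hV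
  have key : ∀ n : ℕ, ∃ β : ℝ → B, β 0 = b ∧
      ∀ t ∈ Ioo (-(T + n * (T / 2))) (T + n * (T / 2)), HasDerivAt β (V (β t)) t := by
    intro n
    induction n with
    | zero => simpa using hl 0 b
    | succ n ih =>
      obtain ⟨β, h0, hβ⟩ := ih
      have hn : 0 ≤ n * (T / 2) := by positivity
      set r := T + n * (T / 2) with hr
      obtain ⟨g, g0, hg⟩ := hl (r - T / 2) (β (r - T / 2))
      obtain ⟨k, k1, -, hk⟩ := vflow_glue hV (by linarith) (by linarith) (by linarith) (by linarith)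
        hβ hg g0.symm
      obtain ⟨g', g0', hg'⟩ := hl (-(r - T / 2)) (k (-(r - T / 2)))
      obtain ⟨k', -, k2, hk'⟩ := vflow_glue hV (by linarith) (by linarith) (by linarith)
        (by linarith) hg' hk g0'
      refine ⟨k', ?_, fun t ht => hk' t ?_⟩
      · rw [k2 ⟨by linarith, by linarith⟩, k1 ⟨by linarith, by linarith⟩, h0]
      · push_cast at ht
        exact ⟨by linarith [ht.1], by linarith [ht.2]⟩
  obtain ⟨n, hn⟩ := exists_nat_ge (ρ / (T / 2))
  obtain ⟨β, h0, hβ⟩ := key n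
  rw [div_le_iff₀ (by positivity)] at hn
  exact ⟨β, h0, fun t ht => hβ t ⟨by linarith [ht.1], by linarith [ht.2]⟩⟩

theorem vflow_sol [CompleteSpace B] {V : B → B} {K : NNReal} (hV : LipschitzWith K V) (b : B) :
    ∃ α : ℝ → B, α 0 = b ∧ ∀ t, HasDerivAt α (V (α t)) t := by
  choose β h0 hβ using vflow_long hV b
  have hu : ∀ ρ ρ' r, |r| < ρ → |r| < ρ' → β ρ r = β ρ' r := by
    intro ρ ρ' r h1 h2
    have hm : |r| < min ρ ρ' := lt_min h1 h2
    have hp : 0 < min ρ ρ' := (abs_nonneg _).trans_lt hm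
    have e1 := min_le_left ρ ρ'
    have e2 := min_le_right ρ ρ'
    exact lip_unique hV (a := -min ρ ρ') (b := min ρ ρ') (t0 := 0) ⟨by linarith, hp⟩
      (fun t ht => hβ ρ t ⟨by linarith [ht.1], by linarith [ht.2]⟩)
      (fun t ht => hβ ρ' t ⟨by linarith [ht.1], by linarith [ht.2]⟩)
      ((h0 ρ).trans (h0 ρ').symm) (abs_lt.1 hm)
  refine ⟨fun r => β (|r| + 1) r, h0 _, fun t => ?_⟩
  have h1 : HasDerivAt (β (|t| + 1)) (V (β (|t| + 1) t)) t :=
    hβ _ t ⟨by linarith [neg_abs_le t], by linarith [le_abs_self t]⟩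
  refine h1.congr_of_eventuallyEq ?_
  filter_upwards [Metric.ball_mem_nhds t one_pos] with r hr
  refine hu _ _ r (by linarith) ?_
  rw [Metric.mem_ball, Real.dist_eq] at hr
  linarith [abs_sub_abs_le_abs_sub r t]

theorem vflow_dist {V : B → B} {K : NNReal} (hV : LipschitzWith K V) {f g : ℝ → B}
    (hf : ∀ t, HasDerivAt f (V (f t)) t) (hg : ∀ t, HasDerivAt g (V (g t)) t) (t : ℝ) :
    dist (f t) (g t) ≤ dist (f 0) (g 0) * Real.exp (K * |t|) := by
  rcases le_total 0 t with h | h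
  · have := dist_le_of_trajectories_ODE (v := fun _ => V) (K := K) (a := 0) (b := t)
      (f := f) (g := g) (fun _ => hV)
      (fun r _ => (hf r).continuousAt.continuousWithinAt) (fun r _ => (hf r).hasDerivWithinAt)
      (fun r _ => (hg r).continuousAt.continuousWithinAt) (fun r _ => (hg r).hasDerivWithinAt)
      le_rfl t (right_mem_Icc.2 h)
    rw [abs_of_nonneg h]
    simpa using this
  · have hd : ∀ {w : ℝ → B}, (∀ t, HasDerivAt w (V (w t)) t) → ∀ r,
        HasDerivAt (fun r => w (-r)) (-V (w (-r))) r := fun hw r =>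
      ((hw (-r)).scomp r (hasDerivAt_neg r)).congr_deriv (by simp)
    have := dist_le_of_trajectories_ODE (v := fun _ x => -V x) (K := K) (a := 0)
      (b := -t) (f := fun r => f (-r)) (g := fun r => g (-r)) (fun _ => hV.neg)
      (fun r _ => (hd hf r).continuousAt.continuousWithinAt) (fun r _ => (hd hf r).hasDerivWithinAt)
      (fun r _ => (hd hg r).continuousAt.continuousWithinAt) (fun r _ => (hd hg r).hasDerivWithinAt)
      le_rfl (-t) (right_mem_Icc.2 (neg_nonneg.2 h))
    simp only [neg_neg, neg_zero, sub_zero] at this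
    rwa [abs_of_nonpos h]

theorem lip_flow [CompleteSpace B] {V : B → B} {K : NNReal} (hV : LipschitzWith K V) :
    ∃ Φ : Flow ℝ B, ∀ b t, HasDerivAt (fun s => Φ s b) (V (Φ t b)) t := by
  choose α h0 hα using vflow_sol hV
  refine ⟨⟨fun t b => α b t, ?_, fun s t b => ?_, h0⟩, fun b t => hα b t⟩
  · rw [continuous_iff_continuousAt]
    rintro ⟨t0, b0⟩
    have hc : Continuous (α b0) := continuous_iff_continuousAt.2 fun t => (hα b0 t).continuousAt
    rw [ContinuousAt, tendsto_iff_dist_tendsto_zero]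
    have hc' : Continuous fun p : ℝ × B =>
        dist p.2 b0 * Real.exp (K * |p.1|) + dist (α b0 p.1) (α b0 t0) := by fun_prop
    refine squeeze_zero (fun _ => dist_nonneg) (fun p => ?_) (hc'.tendsto' _ 0 (by simp))
    have h1 := vflow_dist hV (hα p.2) (hα b0) p.1
    rw [h0, h0] at h1
    exact (dist_triangle _ (α b0 p.1) _).trans (add_le_add h1 le_rfl)
  · have hs : ∀ r, HasDerivAt (fun r => α b (r + t)) (V (α b (r + t))) r := fun r =>
      (hα b (r + t)).comp_add_const r t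
    exact congrFun (ODE_solution_unique_univ (v := fun _ => V) (s := fun _ => univ) (K := K)
      (t₀ := 0) (f := fun r => α b (r + t)) (g := α (α b t)) (fun _ => hV.lipschitzOnWith)
      (fun r => ⟨hs r, trivial⟩) (fun r => ⟨hα _ r, trivial⟩) (by simp [h0])) s

end Vale.Agent.P265.L
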