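import Vale.Agent.P265.V.Defs

/-! Part V: Sylvester coordinates. PLAN. syl: QuadraticForm.equivalent_one_neg_one_weighted_sum_squared (needs (associated Q).SeparatingLeft; associated = polar / 2) gives weights w : Fin (finrank) → ℝ in {-1, 1};
split the index set: s = card {i // w i = -1}, s' = card {i // ¬ w i = -1}, Fintype.equivFin, Equiv.sumCompl, LinearEquiv.funCongrLeft / sumArrowLequivProdArrow, LinearEquiv.toContinuousLinearEquiv; Fintype.sum_subtype_add_sum_subtype.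
qq_deriv: HasDerivAt of sums of squares. qq_low: ‖w‖ ^ 2 ≤ the sum of the squares (sup norm), ‖z‖ ≤ ‖e.symm‖ ‖e z‖. -/

open Set Topology Filter
open scoped ContDiff

noncomputable section
namespace Vale.Agent.P265.L

variable {E : Type} [NormedAddCommGroup E] [NormedSpace ℝ E]

/-- The sum of all squares. -/
def ss {s s' : ℕ} (w : Sp s s') : ℝ := ∑ i, w.2 i ^ 2 + ∑ i, w.1 i ^ 2

theorem syl [FiniteDimensional ℝ E] (Q : QuadraticForm ℝ E)
    (hQ : ∀ v, (∀ w, QuadraticMap.polar Q v w = 0) → v = 0) :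
    ∃ (s s' : ℕ) (e : E ≃L[ℝ] Sp s s'), s + s' = Module.finrank ℝ E ∧ ∀ z, Q z = qq (e z) := by
  classical
  obtain ⟨w, hw, ⟨φ⟩⟩ := Q.equivalent_one_neg_one_weighted_sum_squared fun v hv => hQ v fun u => by
    have h := congrArg (fun B : E →ₗ[ℝ] E →ₗ[ℝ] ℝ => B v u) (QuadraticMap.two_nsmul_associated ℝ Q)
    simp only [LinearMap.smul_apply, QuadraticMap.polarBilin_apply_apply] at h
    rw [← h, hv u, smul_zero]
  obtain ⟨s, s', σ, h1, h2⟩ : ∃ (s s' : ℕ) (σ : Fin s ⊕ Fin s' ≃ Fin (Module.finrank ℝ E)),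
      (∀ i, w (σ (.inl i)) = -1) ∧ ∀ i, w (σ (.inr i)) = 1 :=
    ⟨_, _, ((Fintype.equivFin {i // w i = -1}).symm.sumCongr
      (Fintype.equivFin {i // ¬ w i = -1}).symm).trans (Equiv.sumCompl fun i => w i = -1),
      fun i => ((Fintype.equivFin {i // w i = -1}).symm i).2,
      fun i => (hw _).resolve_left ((Fintype.equivFin {i // ¬ w i = -1}).symm i).2⟩
  refine ⟨s, s', ((φ.toLinearEquiv.trans (LinearEquiv.funCongrLeft ℝ ℝ σ)).trans
    (LinearEquiv.sumPiEquivProdPi ℝ (Fin s) (Fin s') fun _ => ℝ)).toContinuousLinearEquiv,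
    by simpa using Fintype.card_congr σ, fun z => ?_⟩
  rw [← φ.map_app z, QuadraticMap.weightedSumSquares_apply, ← σ.sum_comp, Fintype.sum_sum_type]
  show _ = ∑ i, φ z (σ (.inr i)) ^ 2 - ∑ i, φ z (σ (.inl i)) ^ 2
  simp only [h1, h2, smul_eq_mul, neg_one_mul, one_mul, Finset.sum_neg_distrib, sq]
  ring

theorem vsyl_line {s s' : ℕ} (e : E ≃L[ℝ] Sp s s') (z : E) (t : ℝ) :
    qq (e (z + t • lam e z)) =
      (1 - t) ^ 2 * ∑ i, (e z).2 i ^ 2 - (1 + t) ^ 2 * ∑ i, (e z).1 i ^ 2 := by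
  rw [map_add, map_smul, lam_apply, e.apply_symm_apply, qq, Finset.mul_sum, Finset.mul_sum]
  congr 1 <;> refine Finset.sum_congr rfl fun i _ => ?_
  · simp only [Prod.snd_add, Prod.smul_snd, Pi.add_apply, Pi.smul_apply, Pi.neg_apply, smul_eq_mul]
    ring
  · simp only [Prod.fst_add, Prod.smul_fst, Pi.add_apply, Pi.smul_apply, smul_eq_mul]
    ring

theorem qq_deriv {s s' : ℕ} (e : E ≃L[ℝ] Sp s s') (z : E) :
    HasDerivAt (fun t : ℝ => qq (e (z + t • lam e z))) (-2 * ss (e z)) 0 := by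
  simp only [vsyl_line]
  refine HasDerivAt.congr_deriv (((((hasDerivAt_id' (0 : ℝ)).const_sub 1).pow 2).mul_const _).sub
    ((((hasDerivAt_id' (0 : ℝ)).const_add 1).pow 2).mul_const _)) ?_
  rw [ss]
  norm_num
  ring

theorem qq_polar {s s' : ℕ} (e : E ≃L[ℝ] Sp s s') (z : E) :
    qq (e (z + lam e z)) - qq (e z) - qq (e (lam e z)) = -2 * ss (e z) := by
  have h := vsyl_line e z 1
  rw [one_smul] at h
  rw [h, lam_apply, e.apply_symm_apply]
  simp only [qq, ss, Pi.neg_apply, neg_sq]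
  ring

theorem vsyl_norm {s s' : ℕ} (w : Sp s s') : ‖w‖ ^ 2 ≤ ss w := by
  have h1 : 0 ≤ ∑ i, w.1 i ^ 2 := Finset.sum_nonneg fun i _ => sq_nonneg _
  have h2 : 0 ≤ ∑ i, w.2 i ^ 2 := Finset.sum_nonneg fun i _ => sq_nonneg _
  refine (Real.le_sqrt (norm_nonneg _) (add_nonneg h2 h1)).1 (norm_prod_le_iff.2 ⟨?_, ?_⟩) <;>
    refine (pi_norm_le_iff_of_nonneg (Real.sqrt_nonneg _)).2 fun i => Real.abs_le_sqrt ?_
  · exact (Finset.single_le_sum (f := fun i => w.1 i ^ 2) (fun i _ => sq_nonneg _)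
      (Finset.mem_univ i)).trans (le_add_of_nonneg_left h2)
  · exact (Finset.single_le_sum (f := fun i => w.2 i ^ 2) (fun i _ => sq_nonneg _)
      (Finset.mem_univ i)).trans (le_add_of_nonneg_right h1)

theorem ss_low {s s' : ℕ} (e : E ≃L[ℝ] Sp s s') :
    ∃ c : ℝ, 0 < c ∧ ∀ z, c * ‖z‖ ^ 2 ≤ ss (e z) := by
  obtain ⟨C, C0, hC⟩ := (e.symm : Sp s s' →L[ℝ] E).bound
  refine ⟨(C ^ 2)⁻¹, by positivity, fun z => le_trans ?_ (vsyl_norm _)⟩
  have h := hC (e z)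
  rw [ContinuousLinearEquiv.coe_coe, e.symm_apply_apply] at h
  rw [inv_mul_le_iff₀ (by positivity), ← mul_pow]
  exact pow_le_pow_left₀ (norm_nonneg _) h 2

end Vale.Agent.P265.L
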